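import Vale.Agent.Lib.P034.T5
import Vale.Agent.Lib.P064F.Wrap

open Finset
open scoped Pointwise
open scoped Classical

namespace Vale.Agent.Lib.P064O

open Vale.Agent.Lib.P064 Vale.Agent.Lib.P064F

/-- The action of permutations of `Fin n` on unordered pairs. -/
instance permAct (n : ℕ) : MulAction (Equiv.Perm (Fin n)) (Sym2 (Fin n)) where
  smul γ e := Sym2.map γ e
  one_smul e := by
    change Sym2.map (⇑(1 : Equiv.Perm (Fin n))) e = e
    simp
  mul_smul a b e := by
    change Sym2.map (⇑(a * b)) e = Sym2.map a (Sym2.map b e)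
    rw [Sym2.map_map]
    rfl

lemma smul_def {n : ℕ} (γ : Equiv.Perm (Fin n)) (e : Sym2 (Fin n)) : γ • e = Sym2.map γ e := rfl

lemma exists_perm_ext {n : ℕ} {W : Type} (g h : W → Fin n) (hg : Function.Injective g)
    (hh : Function.Injective h) : ∃ γ : Equiv.Perm (Fin n), ∀ a, γ (g a) = h a := by
  let e : {x // x ∈ Set.range g} ≃ {x // x ∈ Set.range h} :=
    (Equiv.ofInjective g hg).symm.trans (Equiv.ofInjective h hh)
  refine ⟨e.extendSubtype, fun a => ?_⟩
  rw [Equiv.extendSubtype_apply_of_mem e _ ⟨a, rfl⟩]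
  have h1 : (⟨g a, ⟨a, rfl⟩⟩ : {x // x ∈ Set.range g}) = Equiv.ofInjective g hg a := rfl
  simp only [e, Equiv.trans_apply]
  rw [h1, Equiv.symm_apply_apply]
  rfl

/-- The permutations fixing the image of `j` pointwise. -/
noncomputable def Fix {n : ℕ} {W : Type} (j : W → Fin n) : Finset (Equiv.Perm (Fin n)) :=
  univ.filter fun γ => ∀ a, γ (j a) = j a

lemma mem_Fix {n : ℕ} {W : Type} {j : W → Fin n} {γ : Equiv.Perm (Fin n)} :
    γ ∈ Fix j ↔ ∀ a, γ (j a) = j a := by
  simp [Fix]

/-- Orbit counting for `Fix`. -/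
lemma card_perm_eq {n : ℕ} {W : Type} [Fintype W] (j : W → Fin n) (hj : Function.Injective j) :
    Fintype.card (Equiv.Perm (Fin n)) = n.descFactorial (Fintype.card W) * (Fix j).card := by
  classical
  let res : Equiv.Perm (Fin n) → (W ↪ Fin n) := fun γ => ⟨fun a => γ (j a), fun a b h => hj (γ.injective h)⟩
  have h1 : (univ : Finset (Equiv.Perm (Fin n))).card
      = ∑ g ∈ (univ : Finset (W ↪ Fin n)),
        ((univ : Finset (Equiv.Perm (Fin n))).filter (fun γ => res γ = g)).card :=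
    Finset.card_eq_sum_card_fiberwise (fun _ _ => mem_univ _)
  have h2 : ∀ g ∈ (univ : Finset (W ↪ Fin n)),
      ((univ : Finset (Equiv.Perm (Fin n))).filter (fun γ => res γ = g)).card = (Fix j).card := by
    intro g _
    obtain ⟨γ1, hγ1⟩ := exists_perm_ext j g hj g.injective
    refine Finset.card_bij' (fun γ _ => γ1⁻¹ * γ) (fun γ _ => γ1 * γ) ?_ ?_ ?_ ?_
    · intro γ hγ
      have h3 := (Finset.mem_filter.1 hγ).2
      refine mem_Fix.2 (fun a => ?_)
      have h4 : γ (j a) = g a := by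
        rw [← h3]
        rfl
      rw [Equiv.Perm.mul_apply, h4, Equiv.Perm.inv_eq_iff_eq, hγ1 a]
    · intro γ hγ
      have h3 := mem_Fix.1 hγ
      refine Finset.mem_filter.2 ⟨mem_univ _, ?_⟩
      refine DFunLike.ext _ _ (fun a => ?_)
      change (γ1 * γ) (j a) = g a
      rw [Equiv.Perm.mul_apply, h3 a, hγ1 a]
    · intro γ _
      simp
    · intro γ _
      simp
  rw [Finset.sum_congr rfl h2, Finset.sum_const, smul_eq_mul, Finset.card_univ, Finset.card_univ,
    Fintype.card_embedding_eq, Fintype.card_fin] at h1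
  exact h1

variable {V : Type} [Fintype V]

/-- The edge set of `H` transported to `Fin n`. -/
noncomputable def edgesIn {n : ℕ} (H : SimpleGraph V) (ι : V → Fin n) : Finset (Sym2 (Fin n)) :=
  H.edgeFinset.image (Sym2.map ι)

lemma map_mem_edgesIn {n : ℕ} {H : SimpleGraph V} {ι : V → Fin n} {a b : V} (h : H.Adj a b) :
    s(ι a, ι b) ∈ edgesIn H ι := by
  unfold edgesIn
  refine Finset.mem_image.2 ⟨s(a, b), ?_, rfl⟩
  exact SimpleGraph.mem_edgeFinset.2 h

/-- Labelled copies of `F` in `H` against permutations. -/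
lemma Om_mul_Fix_le {n : ℕ} {α : Type} [Fintype α] {H : SimpleGraph V} {ι : V → Fin n}
    (hι : Function.Injective ι) (F : SimpleGraph α) (j : α → Fin n) (hj : Function.Injective j) :
    (Om H F).card * (Fix j).card
      ≤ (Vale.Agent.Lib.P034.Om (Equiv.Perm (Fin n)) (edgesIn H ι)
          (F.edgeFinset.image (Sym2.map j))).card := by
  classical
  have hext : ∀ φ : α → V, ∃ γ : Equiv.Perm (Fin n), φ ∈ Om H F → ∀ a, γ (j a) = ι (φ a) := by
    intro φ
    by_cases hφ : φ ∈ Om H F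
    · obtain ⟨γ, hγ⟩ := exists_perm_ext j (fun a => ι (φ a)) hj
        (fun a b h => (mem_Om.1 hφ).1 (hι h))
      exact ⟨γ, fun _ => hγ⟩
    · exact ⟨1, fun h => absurd h hφ⟩
  choose e he using hext
  rw [← Finset.card_product]
  refine Finset.card_le_card_of_injOn (fun x => e x.1 * x.2) ?_ ?_
  · rintro ⟨φ, s⟩ hx
    obtain ⟨hφ, hs⟩ := Finset.mem_product.1 (Finset.mem_coe.1 hx)
    refine Finset.mem_coe.2 (Vale.Agent.Lib.P034.mem_Om.2 ?_)
    intro z hz
    obtain ⟨y, hy, rfl⟩ := Finset.mem_smul_finset.1 hz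
    obtain ⟨x, hx', rfl⟩ := Finset.mem_image.1 hy
    induction x using Sym2.ind with
    | _ a b =>
      have hadj : F.Adj a b := SimpleGraph.mem_edgeFinset.1 hx'
      have h1 := (mem_Om.1 hφ).2 a b hadj
      have h2 := map_mem_edgesIn (ι := ι) h1
      have h3 : ∀ c, (e φ * s) (j c) = ι (φ c) := by
        intro c
        rw [Equiv.Perm.mul_apply, mem_Fix.1 hs c, he φ hφ c]
      simp only [smul_def, Sym2.map_mk]
      rw [h3 a, h3 b]
      exact h2
  · rintro ⟨φ, s⟩ hx ⟨φ', s'⟩ hx' heq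
    obtain ⟨hφ, hs⟩ := Finset.mem_product.1 (Finset.mem_coe.1 hx)
    obtain ⟨hφ', hs'⟩ := Finset.mem_product.1 (Finset.mem_coe.1 hx')
    have heq' : e φ * s = e φ' * s' := heq
    have h3 : φ = φ' := by
      funext c
      apply hι
      have h4 : (e φ * s) (j c) = ι (φ c) := by
        rw [Equiv.Perm.mul_apply, mem_Fix.1 hs c, he φ hφ c]
      have h5 : (e φ' * s') (j c) = ι (φ' c) := by
        rw [Equiv.Perm.mul_apply, mem_Fix.1 hs' c, he φ' hφ' c]
      rw [← h4, ← h5, heq']
    subst h3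
    have h6 := mul_left_cancel heq'
    subst h6
    rfl

end Vale.Agent.Lib.P064O
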