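import Vale.Agent.Lib.P064O.B1

open Finset
open scoped Pointwise
open scoped Classical

namespace Vale.Agent.Lib.P064O

open Vale.Agent.Lib.P064 Vale.Agent.Lib.P064F

variable {V : Type} [Fintype V]

/-- The vertices met by a set of pairs. -/
noncomputable def supp {n : ℕ} (K : Finset (Sym2 (Fin n))) : Finset (Fin n) :=
  univ.filter fun a => ∃ e ∈ K, a ∈ e

lemma mem_supp {n : ℕ} {K : Finset (Sym2 (Fin n))} {a : Fin n} :
    a ∈ supp K ↔ ∃ e ∈ K, a ∈ e := by
  simp [supp]

/-- The graph on the support of a set of pairs. -/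
noncomputable def gOn {n : ℕ} (K : Finset (Sym2 (Fin n))) : SimpleGraph ↥(supp K) :=
  SimpleGraph.fromRel (fun a b => s(a.1, b.1) ∈ K)

lemma gOn_adj {n : ℕ} {K : Finset (Sym2 (Fin n))} {a b : ↥(supp K)} :
    (gOn K).Adj a b ↔ a ≠ b ∧ s(a.1, b.1) ∈ K := by
  unfold gOn
  rw [SimpleGraph.fromRel_adj]
  refine and_congr_right (fun _ => ?_)
  rw [Sym2.eq_swap (a := b.1) (b := a.1)]
  simp

lemma card_edges_gOn {n : ℕ} {K : Finset (Sym2 (Fin n))} (hnd : ∀ a, s(a, a) ∉ K) :
    (gOn K).edgeFinset.card = K.card := by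
  have h1 : K = (gOn K).edgeFinset.image (Sym2.map Subtype.val) := by
    ext z
    simp only [Finset.mem_image]
    constructor
    · intro hz
      induction z using Sym2.ind with
      | _ a b =>
        have ha : a ∈ supp K := mem_supp.2 ⟨_, hz, Sym2.mem_mk_left a b⟩
        have hb : b ∈ supp K := mem_supp.2 ⟨_, hz, Sym2.mem_mk_right a b⟩
        refine ⟨s(⟨a, ha⟩, ⟨b, hb⟩), SimpleGraph.mem_edgeFinset.2 ?_, rfl⟩
        refine gOn_adj.2 ⟨?_, hz⟩
        intro hab
        have h2 : a = b := congrArg Subtype.val hab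
        subst h2
        exact hnd a hz
    · rintro ⟨x, hx, rfl⟩
      induction x using Sym2.ind with
      | _ a b =>
        exact (gOn_adj.1 (SimpleGraph.mem_edgeFinset.1 hx)).2
  conv_rhs => rw [h1]
  rw [Finset.card_image_of_injective _ (Sym2.map.injective Subtype.val_injective)]

lemma card_supp_le {n : ℕ} (K : Finset (Sym2 (Fin n))) : (supp K).card ≤ 2 * K.card := by
  have h1 : supp K ⊆ K.biUnion (fun e => e.toFinset) := by
    intro a ha
    obtain ⟨e, he, hae⟩ := mem_supp.1 ha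
    exact Finset.mem_biUnion.2 ⟨e, he, Sym2.mem_toFinset.2 hae⟩
  have h2 : ∀ e ∈ K, (e.toFinset).card ≤ 2 := by
    intro e _
    induction e using Sym2.ind with
    | _ a b =>
      rw [Sym2.toFinset_mk_eq]
      exact Finset.card_le_two
  have h3 := Finset.card_biUnion_le_card_mul K (fun e => e.toFinset) 2 h2
  have h4 := Finset.card_le_card h1
  omega

lemma stab_mem_iff {n : ℕ} {K : Finset (Sym2 (Fin n))} {s : Equiv.Perm (Fin n)} (hs : s • K = K)
    (x : Sym2 (Fin n)) : s • x ∈ K ↔ x ∈ K := by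
  constructor
  · intro h
    have h' : s • x ∈ s • K := by
      rw [hs]
      exact h
    exact (Finset.smul_mem_smul_finset_iff s).1 h'
  · intro h
    rw [← hs]
    exact Finset.smul_mem_smul_finset h

/-- A permutation stabilizing `K` induces an automorphism of the graph on the support. -/
lemma res_iso {n : ℕ} {K : Finset (Sym2 (Fin n))} {s : Equiv.Perm (Fin n)} (hs : s • K = K) :
    ∃ σ : (gOn K) ≃g (gOn K), ∀ w, (σ w).1 = s w.1 := by
  have hpres : ∀ {t : Equiv.Perm (Fin n)}, t • K = K → ∀ a, a ∈ supp K → t a ∈ supp K := by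
    intro t ht a ha
    obtain ⟨e, he, hae⟩ := mem_supp.1 ha
    refine mem_supp.2 ⟨t • e, ?_, ?_⟩
    · rw [← ht]
      exact Finset.smul_mem_smul_finset he
    · rw [smul_def]
      exact Sym2.mem_map.2 ⟨a, hae, rfl⟩
  have hs' : s⁻¹ • K = K := Vale.Agent.Lib.P034.inv_stab hs
  have hiff : ∀ a, a ∈ supp K ↔ s a ∈ supp K := by
    intro a
    refine ⟨hpres hs a, fun h => ?_⟩
    have h1 := hpres hs' _ h
    simpa using h1
  refine ⟨⟨Equiv.subtypeEquiv s hiff, ?_⟩, fun w => rfl⟩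
  intro a b
  rw [gOn_adj, gOn_adj]
  have h1 : s(s a.1, s b.1) = s • s(a.1, b.1) := rfl
  have h2 : (Equiv.subtypeEquiv s hiff a).1 = s a.1 := rfl
  have h3 : (Equiv.subtypeEquiv s hiff b).1 = s b.1 := rfl
  rw [h2, h3, h1]
  constructor
  · rintro ⟨h4, h5⟩
    exact ⟨fun hab => h4 (by rw [hab]), (stab_mem_iff hs _).1 h5⟩
  · rintro ⟨h4, h5⟩
    exact ⟨fun hab => h4 ((Equiv.subtypeEquiv s hiff).injective hab), (stab_mem_iff hs _).2 h5⟩

lemma desc_le_orbit_aut {n : ℕ} (K : Finset (Sym2 (Fin n))) :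
    n.descFactorial (supp K).card
      ≤ Nat.card ((gOn K) ≃g (gOn K)) *
        ((univ : Finset (Equiv.Perm (Fin n))).image (fun γ => γ • K)).card := by
  classical
  have hext : ∀ g : ↥(supp K) ↪ Fin n, ∃ γ : Equiv.Perm (Fin n), ∀ a : ↥(supp K), γ a.1 = g a := by
    intro g
    exact exists_perm_ext Subtype.val g Subtype.val_injective g.injective
  choose E hE using hext
  let Ψ : (↥(supp K) ↪ Fin n) → Finset (Sym2 (Fin n)) := fun g => E g • K
  have : Finite ((gOn K) ≃g (gOn K)) := finite_aut (gOn K)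
  have hfib : ∀ a ∈ (univ : Finset (↥(supp K) ↪ Fin n)).image Ψ,
      ((univ : Finset (↥(supp K) ↪ Fin n)).filter (fun g => Ψ g = a)).card
        ≤ Nat.card ((gOn K) ≃g (gOn K)) := by
    intro a ha
    obtain ⟨g0, _, rfl⟩ := Finset.mem_image.1 ha
    have hex : ∀ g : ↥((univ : Finset (↥(supp K) ↪ Fin n)).filter (fun g => Ψ g = Ψ g0)),
        ∃ σ : (gOn K) ≃g (gOn K), ∀ w, g0 (σ w) = g.1 w := by
      rintro ⟨g, hg⟩
      have h1 : E g • K = E g0 • K := (Finset.mem_filter.1 hg).2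
      have h2 : ((E g0)⁻¹ * E g) • K = K := by
        rw [mul_smul, h1, inv_smul_smul]
      obtain ⟨σ, hσ⟩ := res_iso h2
      refine ⟨σ, fun w => ?_⟩
      rw [← hE g0, hσ w, Equiv.Perm.mul_apply, ← hE g w]
      simp
    choose τ hτ using hex
    have h1 : ((univ : Finset (↥(supp K) ↪ Fin n)).filter (fun g => Ψ g = Ψ g0)).card
        = Nat.card ↥((univ : Finset (↥(supp K) ↪ Fin n)).filter (fun g => Ψ g = Ψ g0)) := by
      rw [Nat.card_eq_fintype_card, Fintype.card_coe]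
    rw [h1]
    apply Nat.card_le_card_of_injective τ
    intro a b hab
    apply Subtype.ext
    refine DFunLike.ext _ _ (fun w => ?_)
    rw [← hτ a w, ← hτ b w, hab]
  have h := Finset.card_le_mul_card_image (f := Ψ) univ (Nat.card ((gOn K) ≃g (gOn K))) hfib
  rw [Finset.card_univ, Fintype.card_embedding_eq, Fintype.card_fin, Fintype.card_coe] at h
  refine h.trans (Nat.mul_le_mul_left _ (Finset.card_le_card ?_))
  intro a ha
  obtain ⟨g, _, rfl⟩ := Finset.mem_image.1 ha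
  exact Finset.mem_image.2 ⟨E g, mem_univ _, rfl⟩

/-- The hypothesis of the abstract chain, from the automorphism hypothesis. -/
lemma hyp_of_hypK {n : ℕ} {H : SimpleGraph V} {ι : V → Fin n} (hι : Function.Injective ι) {q : ℝ}
    (hq : 0 < q) (hK : HypK H n q) (K : Finset (Sym2 (Fin n)))
    (hne : (Vale.Agent.Lib.P034.Om (Equiv.Perm (Fin n)) (edgesIn H ι) K).Nonempty) :
    1 / 2 < (((univ : Finset (Equiv.Perm (Fin n))).image (fun γ => γ • K)).card : ℝ)
      * (2 * Real.exp 1 ^ 2 * q) ^ K.card := by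
  classical
  obtain ⟨γ0, hγ0⟩ := hne
  have hsub := Vale.Agent.Lib.P034.mem_Om.1 hγ0
  have hmem : ∀ e ∈ K, γ0 • e ∈ edgesIn H ι := fun e he => hsub (Finset.smul_mem_smul_finset he)
  set O := ((univ : Finset (Equiv.Perm (Fin n))).image (fun γ => γ • K)).card with hO
  have hO1 : (1 : ℝ) ≤ (O : ℝ) := by
    have : 0 < O := Finset.card_pos.2 ⟨_, Finset.mem_image.2 ⟨1, mem_univ _, rfl⟩⟩
    exact_mod_cast this
  have hexp := Real.exp_pos 1
  rcases Finset.eq_empty_or_nonempty K with rfl | hKne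
  · simp only [card_empty, pow_zero, mul_one]
    linarith
  have hnd : ∀ a, s(a, a) ∉ K := by
    intro a ha
    have h1 := hmem _ ha
    obtain ⟨x, hx, hxe⟩ := Finset.mem_image.1 h1
    induction x using Sym2.ind with
    | _ u v =>
      have hadj : H.Adj u v := SimpleGraph.mem_edgeFinset.1 hx
      have h2 : s(ι u, ι v) = s(γ0 a, γ0 a) := hxe
      have h3 : ι u = γ0 a ∧ ι v = γ0 a := by
        have h4 := Sym2.eq_iff.1 h2
        rcases h4 with h4 | h4
        · exact h4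
        · exact ⟨h4.1, h4.2⟩
      exact hadj.ne (hι (h3.1.trans h3.2.symm))
  -- the copy of the support graph in `H`
  have hw : ∀ a : ↥(supp K), ∃ v : V, ι v = γ0 a.1 := by
    rintro ⟨a, ha⟩
    obtain ⟨e, he, hae⟩ := mem_supp.1 ha
    obtain ⟨x, _, hxe⟩ := Finset.mem_image.1 (hmem e he)
    have h1 : γ0 a ∈ Sym2.map ι x := by
      rw [hxe, smul_def]
      exact Sym2.mem_map.2 ⟨a, hae, rfl⟩
    obtain ⟨u, _, hu⟩ := Sym2.mem_map.1 h1
    exact ⟨u, hu⟩
  choose w hwv using hw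
  have hwOm : w ∈ Om H (gOn K) := by
    refine mem_Om.2 ⟨?_, ?_⟩
    · intro a b hab
      apply Subtype.ext
      apply γ0.injective
      rw [← hwv a, ← hwv b, hab]
    · intro a b hab
      have h1 := (gOn_adj.1 hab).2
      obtain ⟨x, hx, hxe⟩ := Finset.mem_image.1 (hmem _ h1)
      have h2 : Sym2.map ι x = Sym2.map ι s(w a, w b) := by
        rw [hxe, smul_def, Sym2.map_mk, Sym2.map_mk, hwv a, hwv b]
      have h3 := Sym2.map.injective hι h2
      rw [h3] at hx
      exact SimpleGraph.mem_edgeFinset.1 hx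
  have hA := hK _ (gOn K) (nonempty_copy hwOm)
  rw [card_edges_gOn hnd, Fintype.card_coe] at hA
  set W := (supp K).card with hWdef
  set m := K.card with hm
  have hm1 : 1 ≤ m := Finset.card_pos.2 hKne
  have hWn : W ≤ n := by
    have := Finset.card_le_univ (supp K)
    rwa [Fintype.card_fin] at this
  have hW2 : W ≤ 2 * m := card_supp_le K
  have hD : (n.descFactorial W : ℝ)
      ≤ (Nat.card ((gOn K) ≃g (gOn K)) : ℝ) * (O : ℝ) := by
    exact_mod_cast desc_le_orbit_aut K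
  have hDpos : (0 : ℝ) < (n.descFactorial W : ℝ) := by
    exact_mod_cast Nat.descFactorial_pos.2 hWn
  have hpow := pow_le_exp_desc hWn
  have hexpW : Real.exp (W : ℝ) ≤ Real.exp 1 ^ (2 * m) := by
    rw [← Real.exp_nat_mul]
    apply Real.exp_le_exp.2
    have : (W : ℝ) ≤ ((2 * m : ℕ) : ℝ) := by exact_mod_cast hW2
    linarith
  have hqm : 0 < q ^ m := pow_pos hq m
  have hmain : (n.descFactorial W : ℝ) * 1 ≤ (n.descFactorial W : ℝ) *
      ((O : ℝ) * (2 * (Real.exp 1 ^ 2 * q) ^ m)) := by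
    calc (n.descFactorial W : ℝ) * 1 = (n.descFactorial W : ℝ) := mul_one _
      _ ≤ (Nat.card ((gOn K) ≃g (gOn K)) : ℝ) * (O : ℝ) := hD
      _ ≤ (2 * (n : ℝ) ^ W * q ^ m) * (O : ℝ) :=
          mul_le_mul_of_nonneg_right hA (by positivity)
      _ ≤ (2 * (Real.exp (W : ℝ) * (n.descFactorial W : ℝ)) * q ^ m) * (O : ℝ) := by
          gcongr
      _ ≤ (2 * (Real.exp 1 ^ (2 * m) * (n.descFactorial W : ℝ)) * q ^ m) * (O : ℝ) := by
          gcongr
      _ = _ := by
          rw [mul_pow, pow_mul]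
          ring
  have h1 := le_of_mul_le_mul_left hmain hDpos
  have hpos : 0 < Real.exp 1 ^ 2 * q := by positivity
  have h2 : (2 * Real.exp 1 ^ 2 * q) ^ m = 2 ^ m * (Real.exp 1 ^ 2 * q) ^ m := by
    rw [← mul_pow]
    congr 1
    ring
  have h3 : (2 : ℝ) ≤ 2 ^ m := by
    calc (2 : ℝ) = 2 ^ 1 := by norm_num
      _ ≤ 2 ^ m := pow_le_pow_right₀ (by norm_num) hm1
  have h4 : 0 < (Real.exp 1 ^ 2 * q) ^ m := pow_pos hpos m
  have hOpos : (0 : ℝ) < (O : ℝ) := by linarith
  rw [h2]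
  have h5 : (O : ℝ) * (2 * (Real.exp 1 ^ 2 * q) ^ m) ≤ (O : ℝ) * (2 ^ m * (Real.exp 1 ^ 2 * q) ^ m) := by
    gcongr
  linarith

end Vale.Agent.Lib.P064O
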