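import Vale.Agent.Lib.P064O.B2

open Finset
open scoped Pointwise
open scoped Classical

namespace Vale.Agent.Lib.P064O

open Vale.Agent.Lib.P064 Vale.Agent.Lib.P064F

variable {V : Type} [Fintype V]

/-- The number of orbits of the automorphism group of `H` on the edges of `H`. -/
noncomputable def edgeOrbitCount (H : SimpleGraph V) : ℕ := (H.edgeFinset.image (orbit H)).card

lemma card_image_le_of_factor {α β γ' : Type} [DecidableEq β] [DecidableEq γ'] [Inhabited γ']
    {S : Finset α} (f : α → γ') (g : α → β)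
    (h : ∀ x ∈ S, ∀ y ∈ S, g x = g y → f x = f y) : (S.image f).card ≤ (S.image g).card := by
  classical
  let φ : β → γ' := fun O => if hO : ∃ x ∈ S, g x = O then f hO.choose else default
  have h1 : S.image f ⊆ (S.image g).image φ := by
    intro y hy
    obtain ⟨x, hx, rfl⟩ := Finset.mem_image.1 hy
    refine Finset.mem_image.2 ⟨g x, Finset.mem_image_of_mem _ hx, ?_⟩
    have hO : ∃ x' ∈ S, g x' = g x := ⟨x, hx, rfl⟩
    simp only [φ, dif_pos hO]
    exact h _ hO.choose_spec.1 _ hx hO.choose_spec.2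
  exact (Finset.card_le_card h1).trans Finset.card_image_le

lemma orb_eq_of_orbit_eq {n : ℕ} {H : SimpleGraph V} {ι : V → Fin n} (hι : Function.Injective ι)
    {h h' : Sym2 V} (hh : h ∈ H.edgeFinset) (hh' : h' ∈ H.edgeFinset)
    (heq : orbit H h = orbit H h') :
    Vale.Agent.Lib.P034.orb (Equiv.Perm (Fin n)) (edgesIn H ι) (Sym2.map ι h)
      = Vale.Agent.Lib.P034.orb (Equiv.Perm (Fin n)) (edgesIn H ι) (Sym2.map ι h') := by
  classical
  have h1 : h' ∈ orbit H h := by
    rw [heq]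
    exact Finset.mem_filter.2 ⟨hh', SimpleGraph.Iso.refl, by simp⟩
  obtain ⟨_, g, hg⟩ := Finset.mem_filter.1 h1
  obtain ⟨s, hs⟩ := exists_perm_ext ι (fun v => ι (g v)) hι (fun a b hab => g.injective (hι hab))
  have hmapS : ∀ e : Sym2 V, s • Sym2.map ι e = Sym2.map ι (Sym2.map g e) := by
    intro e
    rw [smul_def, Sym2.map_map, Sym2.map_map]
    exact congrFun (congrArg Sym2.map (funext hs)) e
  have hsub : s • edgesIn H ι ⊆ edgesIn H ι := by
    intro z hz
    obtain ⟨y, hy, rfl⟩ := Finset.mem_smul_finset.1 hz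
    obtain ⟨x, hx, rfl⟩ := Finset.mem_image.1 hy
    rw [hmapS]
    refine Finset.mem_image.2 ⟨Sym2.map g x, ?_, rfl⟩
    induction x using Sym2.ind with
    | _ a b =>
      have h3 : H.Adj a b := SimpleGraph.mem_edgeFinset.1 hx
      exact SimpleGraph.mem_edgeFinset.2 (g.map_rel_iff.2 h3)
  have hstab : s • edgesIn H ι = edgesIn H ι :=
    Finset.eq_of_subset_of_card_le hsub (by rw [Finset.card_smul_finset])
  have hmem : Sym2.map ι h ∈ edgesIn H ι := Finset.mem_image_of_mem _ hh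
  have h4 := (Vale.Agent.Lib.P034.clsOK_orb (Γ := Equiv.Perm (Fin n)) (edgesIn H ι)).inv s hstab _ hmem
  rw [hmapS, hg] at h4
  exact h4.symm

lemma orbitCount_le {n : ℕ} {H : SimpleGraph V} {ι : V → Fin n} (hι : Function.Injective ι) :
    Vale.Agent.Lib.P034.orbitCount (Equiv.Perm (Fin n)) (edgesIn H ι) ≤ edgeOrbitCount H := by
  classical
  unfold Vale.Agent.Lib.P034.orbitCount edgeOrbitCount
  have h1 : (edgesIn H ι).image (Vale.Agent.Lib.P034.orb (Equiv.Perm (Fin n)) (edgesIn H ι))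
      = H.edgeFinset.image
        (fun e => Vale.Agent.Lib.P034.orb (Equiv.Perm (Fin n)) (edgesIn H ι) (Sym2.map ι e)) := by
    unfold edgesIn
    rw [Finset.image_image]
    rfl
  rw [h1]
  exact card_image_le_of_factor _ _ (fun x hx y hy hxy => orb_eq_of_orbit_eq hι hx hy hxy)

/-- The main counting bound for labelled copies. -/
theorem Om_orbit_bound {n : ℕ} {H : SimpleGraph V} (hV : Fintype.card V ≤ n) {q : ℝ} (hq : 0 < q)
    (hK : HypK H n q) {α : Type} [Fintype α] (F : SimpleGraph α) :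
    ((Om H F).card : ℝ) ≤ (n.descFactorial (Fintype.card α) : ℝ) *
      (240 * (edgeOrbitCount H : ℝ) * q) ^ F.edgeFinset.card := by
  classical
  have hexp := Real.exp_pos 1
  have hr0 : (0 : ℝ) ≤ (edgeOrbitCount H : ℝ) := by positivity
  by_cases hne : (Om H F).Nonempty
  swap
  · rw [Finset.not_nonempty_iff_eq_empty] at hne
    rw [hne]
    simp only [card_empty, Nat.cast_zero]
    positivity
  obtain ⟨φ, hφ⟩ := hne
  have hαV : Fintype.card α ≤ Fintype.card V := Fintype.card_le_of_injective φ (mem_Om.1 hφ).1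
  obtain ⟨ι'⟩ := Function.Embedding.nonempty_of_card_le (α := V) (β := Fin n)
    (by rwa [Fintype.card_fin])
  obtain ⟨j'⟩ := Function.Embedding.nonempty_of_card_le (α := α) (β := Fin n)
    (by rw [Fintype.card_fin]; omega)
  obtain ⟨ι, hι⟩ : ∃ ι : V → Fin n, Function.Injective ι := ⟨ι', ι'.injective⟩
  obtain ⟨j, hj⟩ : ∃ j : α → Fin n, Function.Injective j := ⟨j', j'.injective⟩
  set K := F.edgeFinset.image (Sym2.map j) with hKdef
  have hKc : K.card = F.edgeFinset.card :=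
    Finset.card_image_of_injective _ (Sym2.map.injective hj)
  have h1 := Om_mul_Fix_le (H := H) hι F j hj
  have hb := Vale.Agent.Lib.P034.untyped_bound (Γ := Equiv.Perm (Fin n)) (A := edgesIn H ι)
    (q := 2 * Real.exp 1 ^ 2 * q) (L := 16) (by positivity) le_rfl
    (hyp_of_hypK hι hq hK) K
  rw [hKc] at hb
  have hc := card_perm_eq j hj
  have hFixpos : (0 : ℝ) < ((Fix j).card : ℝ) := by
    have : (Fix j).Nonempty := ⟨1, mem_Fix.2 (fun a => rfl)⟩
    exact_mod_cast Finset.card_pos.2 this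
  have hc' : (Fintype.card (Equiv.Perm (Fin n)) : ℝ)
      = (n.descFactorial (Fintype.card α) : ℝ) * ((Fix j).card : ℝ) := by
    exact_mod_cast hc
  have h1' : ((Om H F).card : ℝ) * ((Fix j).card : ℝ)
      ≤ ((Vale.Agent.Lib.P034.Om (Equiv.Perm (Fin n)) (edgesIn H ι) K).card : ℝ) := by
    exact_mod_cast h1
  have hr : (Vale.Agent.Lib.P034.orbitCount (Equiv.Perm (Fin n)) (edgesIn H ι) : ℝ)
      ≤ (edgeOrbitCount H : ℝ) := by
    exact_mod_cast orbitCount_le hι
  have hbase : (Vale.Agent.Lib.P034.orbitCount (Equiv.Perm (Fin n)) (edgesIn H ι) : ℝ)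
      * (16 * (2 * Real.exp 1 ^ 2 * q)) ≤ 240 * (edgeOrbitCount H : ℝ) * q := by
    have h7 := Real.exp_one_lt_d9
    have h8 : Real.exp 1 ^ 2 ≤ 7.5 := by nlinarith
    calc (Vale.Agent.Lib.P034.orbitCount (Equiv.Perm (Fin n)) (edgesIn H ι) : ℝ)
          * (16 * (2 * Real.exp 1 ^ 2 * q))
        ≤ (edgeOrbitCount H : ℝ) * (16 * (2 * Real.exp 1 ^ 2 * q)) := by
          gcongr
      _ ≤ (edgeOrbitCount H : ℝ) * (16 * (2 * 7.5 * q)) := by
          gcongr
      _ = _ := by ring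
  have hpow : ((Vale.Agent.Lib.P034.orbitCount (Equiv.Perm (Fin n)) (edgesIn H ι) : ℝ)
      * (16 * (2 * Real.exp 1 ^ 2 * q))) ^ F.edgeFinset.card
      ≤ (240 * (edgeOrbitCount H : ℝ) * q) ^ F.edgeFinset.card :=
    pow_le_pow_left₀ (by positivity) hbase _
  have h2 : ((Om H F).card : ℝ) * ((Fix j).card : ℝ)
      ≤ ((n.descFactorial (Fintype.card α) : ℝ) *
        (240 * (edgeOrbitCount H : ℝ) * q) ^ F.edgeFinset.card) * ((Fix j).card : ℝ) := by
    calc ((Om H F).card : ℝ) * ((Fix j).card : ℝ) ≤ _ := h1'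
      _ ≤ _ := hb
      _ ≤ (Fintype.card (Equiv.Perm (Fin n)) : ℝ) *
            (240 * (edgeOrbitCount H : ℝ) * q) ^ F.edgeFinset.card :=
          mul_le_mul_of_nonneg_left hpow (by positivity)
      _ = _ := by
          rw [hc']
          ring
  exact le_of_mul_le_mul_right h2 hFixpos

lemma labelled_le_Om {α : Type} [Fintype α] (F : SimpleGraph α) (H : SimpleGraph V) (ψ : α → V) :
    H.labelledCopyCount F ≤ (Om H F).card := by
  refine (labelled_le_ext F H ψ).trans (Finset.card_le_card ?_)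
  intro φ hφ
  obtain ⟨_, h2, h3⟩ := mem_Ext.1 hφ
  refine mem_Om.2 ⟨?_, ?_⟩
  · intro a b hab
    exact h2 (by simp) (by simp) hab
  · intro a b hab
    exact h3 a b (by simp) (by simp) hab

lemma edgeOrbitCount_pos {H : SimpleGraph V} (hH : H ≠ ⊥) : 0 < edgeOrbitCount H := by
  unfold edgeOrbitCount
  refine Finset.card_pos.2 (Finset.Nonempty.image ?_ _)
  rw [Finset.nonempty_iff_ne_empty]
  intro h
  exact hH (SimpleGraph.edgeFinset_eq_empty.1 h)

/-- The pointwise bound. -/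
theorem orbit_pointwise {n : ℕ} (H : SimpleGraph V) (hV : Fintype.card V ≤ n)
    (hH : H ≠ ⊥) {q : ℝ} (hq0 : 0 ≤ q) (_hq1 : q ≤ 1)
    (hqF : ∀ F : H.Subgraph, (1 : ℝ) / 2 ≤ expCount n q F.coe) (F : H.Subgraph) :
    (H.copyCount F.coe : ℝ) ≤ expCount n (min 1 (240 * (edgeOrbitCount H : ℝ) * q)) F.coe := by
  have hK := hypK_of hq0 hqF
  have hqpos : 0 < q := q_pos hH hq0 hK
  have hr : (0 : ℝ) ≤ (edgeOrbitCount H : ℝ) := by positivity
  by_cases hcase : 1 ≤ 240 * (edgeOrbitCount H : ℝ) * q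
  · rw [min_eq_left hcase]
    exact top_bound H hV F.coe
  · rw [not_le] at hcase
    rw [min_eq_right hcase.le]
    have hA : (0 : ℝ) < Nat.card (F.coe ≃g F.coe) := by exact_mod_cast card_aut_pos F.coe
    apply le_of_mul_le_mul_right _ hA
    rw [copy_mul_eq, expCount_mul]
    by_cases hc : Nonempty (F.coe.Copy H)
    · obtain ⟨c⟩ := hc
      have h1 := labelled_le_Om F.coe H (⇑c)
      have h2 := Om_orbit_bound hV hqpos hK F.coe
      calc (H.labelledCopyCount F.coe : ℝ) ≤ ((Om H F.coe).card : ℝ) := by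
            exact_mod_cast h1
        _ ≤ _ := h2
    · have h0 : H.labelledCopyCount F.coe = 0 := by
        rw [SimpleGraph.labelledCopyCount_eq_zero]
        exact fun hcon => hc hcon
      rw [h0]
      simp only [Nat.cast_zero]
      positivity

/-- The threshold comparison. -/
theorem orbit_tilde {n : ℕ} (H : SimpleGraph V) (hV : Fintype.card V ≤ n) (hH : H ≠ ⊥) :
    pTilde n H ≤ 240 * (edgeOrbitCount H : ℝ) * pE n H := by
  set Cn : ℝ := 240 * (edgeOrbitCount H : ℝ) with hCn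
  have hCnpos : 1 ≤ Cn := by
    have : (1 : ℝ) ≤ (edgeOrbitCount H : ℝ) := by exact_mod_cast edgeOrbitCount_pos hH
    rw [hCn]
    linarith
  have hbdd : BddBelow {p : ℝ | 0 ≤ p ∧ p ≤ 1 ∧ ∀ F : H.Subgraph,
      (H.copyCount F.coe : ℝ) / 2 ≤ expCount n p F.coe} := ⟨0, fun p hp => hp.1⟩
  have hsubcount : ∀ F : H.Subgraph, 1 ≤ H.copyCount F.coe := by
    intro F
    have : 0 < H.copyCount F.coe := SimpleGraph.copyCount_pos.2 F.coe_isContained
    omega
  have htop : ∀ F : H.Subgraph, (H.copyCount F.coe : ℝ) ≤ expCount n 1 F.coe := by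
    intro F
    exact top_bound H hV F.coe
  have h1E : (1 : ℝ) ∈ {p : ℝ | 0 ≤ p ∧ p ≤ 1 ∧ ∀ F : H.Subgraph,
      (1 : ℝ) / 2 ≤ expCount n p F.coe} := by
    refine ⟨by norm_num, le_rfl, fun F => ?_⟩
    have h1 := htop F
    have h0 : (1 : ℝ) ≤ H.copyCount F.coe := by exact_mod_cast hsubcount F
    linarith
  have hkey : ∀ q ∈ {p : ℝ | 0 ≤ p ∧ p ≤ 1 ∧ ∀ F : H.Subgraph,
      (1 : ℝ) / 2 ≤ expCount n p F.coe}, pTilde n H / Cn ≤ q := by
    rintro q ⟨hq0, hq1, hqF⟩
    have hqpos : 0 < q := q_pos hH hq0 (hypK_of hq0 hqF)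
    rw [div_le_iff₀ (by linarith)]
    have hmin : min 1 (Cn * q) ≤ q * Cn := by
      rw [mul_comm q Cn]; exact min_le_right _ _
    refine le_trans ?_ hmin
    have hmem : min 1 (Cn * q) ∈ {p : ℝ | 0 ≤ p ∧ p ≤ 1 ∧ ∀ F : H.Subgraph,
        (H.copyCount F.coe : ℝ) / 2 ≤ expCount n p F.coe} := by
      refine ⟨le_min (by norm_num) (by positivity), min_le_left _ _, fun F => ?_⟩
      have h1 := orbit_pointwise H hV hH hq0 hq1 hqF F
      have h0 : (0 : ℝ) ≤ H.copyCount F.coe := by positivity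
      rw [hCn]
      linarith
    exact csInf_le hbdd hmem
  have hfinal : pTilde n H / Cn ≤ pE n H := le_csInf ⟨1, h1E⟩ hkey
  rw [div_le_iff₀ (by linarith)] at hfinal
  rw [mul_comm] at hfinal
  exact hfinal

end Vale.Agent.Lib.P064O
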